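import Mathlib

/-!
P254: the beta integral for natural exponents.
-/

open MeasureTheory intervalIntegral

namespace Vale.Agent.Lib.P254

theorem beta_rec (p q : ℕ) (t : ℝ) :
    ((q : ℝ) + 1) * ∫ x in (0 : ℝ)..t, x ^ (p + 1) * (t - x) ^ q
      = ((p : ℝ) + 1) * ∫ x in (0 : ℝ)..t, x ^ p * (t - x) ^ (q + 1) := by
  have hd : ∀ x : ℝ, HasDerivAt (fun x : ℝ => x ^ (p + 1) * (t - x) ^ (q + 1))
      (((p : ℝ) + 1) * (x ^ p * (t - x) ^ (q + 1)) - ((q : ℝ) + 1) * (x ^ (p + 1) * (t - x) ^ q))
      x := by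
    intro x
    have h1 : HasDerivAt (fun x : ℝ => x ^ (p + 1)) (((p + 1 : ℕ) : ℝ) * x ^ p) x := by
      simpa using hasDerivAt_pow (p + 1) x
    have h2 : HasDerivAt (fun x : ℝ => (t - x) ^ (q + 1))
        (((q + 1 : ℕ) : ℝ) * (t - x) ^ q * (-1)) x := by
      have h3 := ((hasDerivAt_id x).const_sub t).fun_pow (q + 1)
      simpa using h3
    refine (h1.mul h2).congr_deriv ?_
    push_cast
    ring
  have hc1 : Continuous fun x : ℝ => x ^ p * (t - x) ^ (q + 1) := by fun_prop
  have hc2 : Continuous fun x : ℝ => x ^ (p + 1) * (t - x) ^ q := by fun_prop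
  have h := integral_eq_sub_of_hasDerivAt (a := (0 : ℝ)) (b := t) (fun x _ => hd x)
    (((hc1.const_mul _).sub (hc2.const_mul _)).intervalIntegrable _ _)
  rw [intervalIntegral.integral_sub ((hc1.const_mul _).intervalIntegrable _ _)
    ((hc2.const_mul _).intervalIntegrable _ _), intervalIntegral.integral_const_mul,
    intervalIntegral.integral_const_mul] at h
  simp at h
  linarith

theorem beta (p : ℕ) : ∀ (q : ℕ) (t : ℝ), ∫ x in (0 : ℝ)..t, x ^ p * (t - x) ^ q
    = (p.factorial : ℝ) * q.factorial / ((p + q + 1).factorial : ℝ) * t ^ (p + q + 1) := by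
  induction p with
  | zero =>
    intro q t
    have hd : ∀ x : ℝ, HasDerivAt (fun x : ℝ => -((t - x) ^ (q + 1) / ((q : ℝ) + 1)))
        (x ^ 0 * (t - x) ^ q) x := by
      intro x
      have h3 := (((hasDerivAt_id x).const_sub t).fun_pow (q + 1)).div_const ((q : ℝ) + 1)
      refine h3.neg.congr_deriv ?_
      have : (q : ℝ) + 1 ≠ 0 := by positivity
      push_cast
      simp
      field_simp
    have hc : Continuous fun x : ℝ => x ^ 0 * (t - x) ^ q := by fun_prop
    have h := integral_eq_sub_of_hasDerivAt (a := (0 : ℝ)) (b := t) (fun x _ => hd x)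
      (hc.intervalIntegrable _ _)
    rw [h]
    have hq : (q : ℝ) + 1 ≠ 0 := by positivity
    have hf : (q.factorial : ℝ) ≠ 0 := by exact_mod_cast q.factorial_ne_zero
    rw [Nat.factorial_zero, zero_add, Nat.factorial_succ]
    push_cast
    simp
    field_simp
  | succ p ih =>
    intro q t
    have h := beta_rec p q t
    rw [ih (q + 1) t] at h
    have hq : (q : ℝ) + 1 ≠ 0 := by positivity
    have e : p + (q + 1) + 1 = p + 1 + q + 1 := by ring
    have h2 : ∫ x in (0 : ℝ)..t, x ^ (p + 1) * (t - x) ^ q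
        = ((p : ℝ) + 1) * ((p.factorial : ℝ) * ((q + 1).factorial : ℝ)
          / ((p + (q + 1) + 1).factorial : ℝ) * t ^ (p + (q + 1) + 1)) / ((q : ℝ) + 1) := by
      rw [← h]
      field_simp
    rw [h2, e, Nat.factorial_succ p, Nat.factorial_succ q]
    push_cast
    field_simp

end Vale.Agent.Lib.P254
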