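import Mathlib

/-!
P254: isotropic constant of convex bodies.  `ℝ^ι`, `ι` a finite index set, is the space `ι → ℝ` with
Lebesgue measure.
-/

open MeasureTheory

namespace Vale.Agent.Lib.P254

variable {ι κ : Type} [Fintype ι] [Fintype κ]

/-- volume as a real number -/
noncomputable def vol (K : Set (ι → ℝ)) : ℝ := (volume K).toReal

/-- coordinates of the centroid -/
noncomputable def bary (K : Set (ι → ℝ)) (i : ι) : ℝ := (vol K)⁻¹ * ∫ x in K, x i

/-- covariance matrix of the uniform distribution on `K` -/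
noncomputable def cov (K : Set (ι → ℝ)) : Matrix ι ι ℝ :=
  Matrix.of fun i j => (vol K)⁻¹ * ∫ x in K, (x i - bary K i) * (x j - bary K j)

open Classical in
/-- isotropic constant `L_K = (det Σ_K / |K|^2)^(1/(2n))` -/
noncomputable def isoConst (K : Set (ι → ℝ)) : ℝ :=
  ((cov K).det / vol K ^ 2) ^ (1 / (2 * (Fintype.card ι : ℝ)))

/-- convex bodies: compact convex sets with nonempty interior -/
def IsBody (K : Set (ι → ℝ)) : Prop := IsCompact K ∧ Convex ℝ K ∧ (interior K).Nonempty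

/-- the simplex `{x ≥ 0, ∑ x_i ≤ t}`, the convex hull of `0, t e_1, …, t e_n` -/
def S (n : ℕ) (t : ℝ) : Set (Fin n → ℝ) := {x | (∀ i, 0 ≤ x i) ∧ ∑ i, x i ≤ t}

/-- direct product of `K ⊆ ℝ^ι` and `M ⊆ ℝ^κ`, a subset of `ℝ^(ι ⊕ κ)` -/
def prodBody (K : Set (ι → ℝ)) (M : Set (κ → ℝ)) : Set (ι ⊕ κ → ℝ) :=
  {x | (fun i => x (Sum.inl i)) ∈ K ∧ (fun j => x (Sum.inr j)) ∈ M}

/-- `L_Δ^(2n)` for the `n`-simplex -/
noncomputable def s (n : ℕ) : ℝ :=
  ((n.factorial : ℝ)) ^ 2 / (((n : ℝ) + 1) ^ (n + 1) * ((n : ℝ) + 2) ^ n)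

end Vale.Agent.Lib.P254
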