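import Vale.Agent.Lib.P254.Defs

/-! P254 module M1, second copy: Dirichlet integrals. -/

open MeasureTheory

namespace Vale.Agent.Lib.P254

theorem DIRB_beta (a : ℕ) : ∀ (b : ℕ) (t : ℝ), 0 ≤ t →
    ∫ x in (0 : ℝ)..t, x ^ a * (t - x) ^ b =
      (a.factorial : ℝ) * b.factorial / (a + b + 1).factorial * t ^ (a + b + 1) := by
  induction a with
  | zero =>
    intro b t ht
    have h1 : ∀ x : ℝ, HasDerivAt (fun x => -(t - x) ^ (b + 1) / ((b : ℝ) + 1)) ((t - x) ^ b) x := by
      intro x
      have h2 : HasDerivAt (fun x : ℝ => t - x) (-1) x := by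
        simpa using (hasDerivAt_id x).const_sub t
      have h3 := ((h2.pow (b + 1)).neg).div_const ((b : ℝ) + 1)
      refine h3.congr_deriv ?_
      have : ((b : ℝ) + 1) ≠ 0 := by positivity
      push_cast
      field_simp
      try ring
    have h4 := intervalIntegral.integral_eq_sub_of_hasDerivAt (a := 0) (b := t)
      (fun x _ => h1 x) ((Continuous.intervalIntegrable (by fun_prop) _ _))
    simp only [pow_zero, one_mul]
    rw [h4]
    have e : ((0 + b + 1).factorial : ℝ) = ((b : ℝ) + 1) * b.factorial := by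
      rw [Nat.zero_add, Nat.factorial_succ]
      push_cast
      ring
    have hb : (b.factorial : ℝ) ≠ 0 := by exact_mod_cast b.factorial_ne_zero
    have hb1 : ((b : ℝ) + 1) ≠ 0 := by positivity
    rw [e]
    simp only [sub_self, sub_zero, Nat.factorial_zero, Nat.cast_one, Nat.zero_add]
    rw [zero_pow (Nat.succ_ne_zero b)]
    field_simp
    ring
  | succ a ih =>
    intro b t ht
    have h1 : ∀ x : ℝ, HasDerivAt (fun x => x ^ (a + 1) * (t - x) ^ (b + 1))
        (((a : ℝ) + 1) * (x ^ a * (t - x) ^ (b + 1)) - ((b : ℝ) + 1) * (x ^ (a + 1) * (t - x) ^ b))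
        x := by
      intro x
      have h2 : HasDerivAt (fun x : ℝ => t - x) (-1) x := by
        simpa using (hasDerivAt_id x).const_sub t
      have h3 := (hasDerivAt_pow (a + 1) x).mul (h2.pow (b + 1))
      refine h3.congr_deriv ?_
      push_cast
      simp only [Pi.pow_apply, Nat.add_sub_cancel]
      ring
    have h4 := intervalIntegral.integral_eq_sub_of_hasDerivAt (a := 0) (b := t)
      (fun x _ => h1 x) ((Continuous.intervalIntegrable (by fun_prop) _ _))
    rw [intervalIntegral.integral_sub (Continuous.intervalIntegrable (by fun_prop) _ _)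
      (Continuous.intervalIntegrable (by fun_prop) _ _), intervalIntegral.integral_const_mul,
      intervalIntegral.integral_const_mul, ih (b + 1) t ht] at h4
    simp only [sub_self, ne_eq, Nat.succ_ne_zero, not_false_eq_true, zero_pow, mul_zero,
      zero_mul, sub_zero] at h4
    have hb1 : ((b : ℝ) + 1) ≠ 0 := by positivity
    have e1 : ((a + 1).factorial : ℝ) = ((a : ℝ) + 1) * a.factorial := by
      rw [Nat.factorial_succ]; push_cast; ring
    have e2 : ((b + 1).factorial : ℝ) = ((b : ℝ) + 1) * b.factorial := by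
      rw [Nat.factorial_succ]; push_cast; ring
    have e3 : a + (b + 1) + 1 = a + 1 + b + 1 := by ring
    rw [e3, e2] at h4
    rw [e1]
    have h5 : ((b : ℝ) + 1) * ∫ x in (0 : ℝ)..t, x ^ (a + 1) * (t - x) ^ b =
        ((a : ℝ) + 1) * ((a.factorial : ℝ) * (((b : ℝ) + 1) * b.factorial) /
          ((a + 1 + b + 1).factorial : ℝ) * t ^ (a + 1 + b + 1)) := by linarith
    apply mul_left_cancel₀ hb1
    rw [h5]
    ring

theorem DIRB_compact (n : ℕ) (t : ℝ) : IsCompact (S n t) := by
  refine (isCompact_Icc (a := (0 : Fin n → ℝ)) (b := fun _ => t)).of_isClosed_subset ?_ ?_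
  · have h1 : S n t = Set.Ici (0 : Fin n → ℝ) ∩ {x | ∑ i, x i ≤ t} := by
      ext x
      simp [S, Pi.le_def]
    rw [h1]
    exact isClosed_Ici.inter (isClosed_le (by fun_prop) continuous_const)
  · rintro x ⟨h1, h2⟩
    refine ⟨fun i => h1 i, fun i => ?_⟩
    exact (Finset.single_le_sum (fun j _ => h1 j) (Finset.mem_univ i)).trans h2

theorem dirichlet_b (n : ℕ) : ∀ (a : Fin n → ℕ) (t : ℝ), 0 ≤ t →
    ∫ x in S n t, ∏ i, x i ^ a i =
      t ^ (n + ∑ i, a i) * (∏ i, ((a i).factorial : ℝ)) / ((n + ∑ i, a i).factorial : ℝ) := by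
  induction n with
  | zero =>
    intro a t ht
    have h1 : S 0 t = Set.univ := by
      ext x
      simp [S, ht]
    rw [h1]
    simp only [Finset.univ_eq_empty, Finset.prod_empty, Finset.sum_empty, Nat.add_zero,
      Nat.factorial_zero, Nat.cast_one, pow_zero, mul_one, div_one, Measure.restrict_univ,
      integral_const, smul_eq_mul]
    rw [Measure.real, volume_pi, Measure.pi_of_empty]
    simp
  | succ n ih =>
    intro a t ht
    set N : ℕ := n + ∑ i : Fin n, a i.succ with hN
    set P : ℝ := ∏ i : Fin n, ((a i.succ).factorial : ℝ) with hP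
    set e := MeasurableEquiv.piFinSuccAbove (fun _ : Fin (n + 1) => ℝ) 0 with he
    have hcons : ∀ z : ℝ × (Fin n → ℝ), e.symm z = Fin.cons z.1 z.2 := by
      intro z
      simp [he, MeasurableEquiv.piFinSuccAbove, Fin.insertNthEquiv, Fin.insertNth_zero']
    have hmp := (volume_preserving_piFinSuccAbove (fun _ : Fin (n + 1) => ℝ) 0).symm
    have h1 := hmp.setIntegral_preimage_emb e.symm.measurableEmbedding
      (fun x : Fin (n + 1) → ℝ => ∏ i, x i ^ a i) (S (n + 1) t)
    rw [← h1]
    set T : Set (ℝ × (Fin n → ℝ)) := e.symm ⁻¹' (S (n + 1) t) with hT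
    have hTmem : ∀ z : ℝ × (Fin n → ℝ), z ∈ T ↔ z.1 ∈ Set.Icc 0 t ∧ z.2 ∈ S n (t - z.1) := by
      intro z
      rw [hT, Set.mem_preimage, hcons]
      simp only [S, Set.mem_ofPred_eq, Set.mem_Icc, Fin.sum_univ_succ, Fin.cons_zero,
        Fin.cons_succ, Fin.forall_fin_succ]
      constructor
      · rintro ⟨⟨h2, h3⟩, h4⟩
        have h5 : 0 ≤ ∑ i, z.2 i := Finset.sum_nonneg fun i _ => h3 i
        exact ⟨⟨h2, by linarith⟩, h3, by linarith⟩
      · rintro ⟨⟨h2, _⟩, h3, h4⟩
        exact ⟨⟨h2, h3⟩, by linarith⟩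
    have hmeasT : MeasurableSet T := e.symm.measurable (DIRB_compact (n + 1) t).measurableSet
    set G : ℝ × (Fin n → ℝ) → ℝ := fun z => z.1 ^ a 0 * ∏ i : Fin n, z.2 i ^ a i.succ with hG
    have hGe : ∀ z, (∏ i, (e.symm z) i ^ a i) = G z := by
      intro z
      rw [hcons, Fin.prod_univ_succ]
      simp [hG]
    have hint : IntegrableOn G T := by
      have h2 : IntegrableOn (fun x : Fin (n + 1) → ℝ => ∏ i, x i ^ a i) (S (n + 1) t) :=
        (Continuous.continuousOn (by fun_prop)).integrableOn_compact (DIRB_compact (n + 1) t)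
      have h3 := (hmp.integrableOn_comp_preimage e.symm.measurableEmbedding
        (f := fun x : Fin (n + 1) → ℝ => ∏ i, x i ^ a i) (s := S (n + 1) t)).mpr h2
      refine h3.congr_fun (fun z _ => ?_) hmeasT
      exact hGe z
    have h4 : ∫ z in T, (∏ i, (e.symm z) i ^ a i) = ∫ z, T.indicator G z := by
      rw [integral_indicator hmeasT]
      exact integral_congr_ae (Filter.Eventually.of_forall fun z => hGe z)
    refine h4.trans ?_
    rw [Measure.volume_eq_prod, integral_prod _ (by
      have := (integrable_indicator_iff hmeasT).mpr hint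
      rwa [Measure.volume_eq_prod] at this)]
    have h5 : ∀ x0 : ℝ, ∫ y : Fin n → ℝ, T.indicator G (x0, y) =
        (Set.Icc 0 t).indicator (fun x0 => P / (N.factorial : ℝ) *
          (x0 ^ a 0 * (t - x0) ^ N)) x0 := by
      intro x0
      by_cases hx : x0 ∈ Set.Icc 0 t
      · rw [Set.indicator_of_mem hx]
        have h6 : ∀ y, T.indicator G (x0, y) = (S n (t - x0)).indicator
            (fun y => x0 ^ a 0 * ∏ i : Fin n, y i ^ a i.succ) y := by
          intro y
          by_cases hy : y ∈ S n (t - x0)
          · rw [Set.indicator_of_mem hy, Set.indicator_of_mem ((hTmem (x0, y)).mpr ⟨hx, hy⟩)]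
          · rw [Set.indicator_of_notMem hy, Set.indicator_of_notMem
              (fun h => hy ((hTmem (x0, y)).mp h).2)]
        simp only [h6]
        rw [integral_indicator (DIRB_compact n _).measurableSet, integral_const_mul,
          ih (fun i => a i.succ) (t - x0) (by linarith [hx.2])]
        rw [← hN, ← hP]
        ring
      · rw [Set.indicator_of_notMem hx]
        have h6 : ∀ y, T.indicator G (x0, y) = 0 := fun y =>
          Set.indicator_of_notMem (fun h => hx ((hTmem (x0, y)).mp h).1) _
        simp only [h6, integral_zero]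
    simp only [h5]
    rw [integral_indicator measurableSet_Icc, integral_Icc_eq_integral_Ioc,
      ← intervalIntegral.integral_of_le ht, intervalIntegral.integral_const_mul,
      DIRB_beta (a 0) N t ht]
    have e1 : n + 1 + ∑ i, a i = a 0 + N + 1 := by
      rw [Fin.sum_univ_succ, hN]
      ring
    rw [e1, Fin.prod_univ_succ, ← hP]
    have e2 : (N.factorial : ℝ) ≠ 0 := by exact_mod_cast N.factorial_ne_zero
    field_simp

theorem dir_vol (n : ℕ) : vol (S n 1) = 1 / (n.factorial : ℝ) := by
  have h := dirichlet_b n (fun _ => 0) 1 zero_le_one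
  simp only [pow_zero, Finset.prod_const_one, Finset.sum_const_zero, Nat.add_zero, one_pow,
    Nat.factorial_zero, Nat.cast_one, one_mul] at h
  rw [← h]
  simp [vol, Measure.real]

theorem dir_one (n : ℕ) (i : Fin n) : ∫ x in S n 1, x i = 1 / ((n + 1).factorial : ℝ) := by
  classical
  have h := dirichlet_b n (Pi.single i 1) 1 zero_le_one
  have e1 : ∀ x : Fin n → ℝ, ∏ k, x k ^ (Pi.single i 1 : Fin n → ℕ) k = x i := by
    intro x
    rw [Finset.prod_eq_single i]
    · simp
    · intro k _ hk
      simp [Pi.single_eq_of_ne hk]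
    · intro hk
      exact absurd (Finset.mem_univ i) hk
  have e2 : ∏ k, (((Pi.single i 1 : Fin n → ℕ) k).factorial : ℝ) = 1 := by
    refine Finset.prod_eq_one fun k _ => ?_
    by_cases hk : k = i
    · subst hk; simp
    · simp [Pi.single_eq_of_ne hk]
  have e3 : ∑ k, (Pi.single i 1 : Fin n → ℕ) k = 1 := by simp
  simp only [e1, e2, e3, one_pow, mul_one] at h
  exact h

theorem dir_two (n : ℕ) (i j : Fin n) :
    ∫ x in S n 1, x i * x j = (if i = j then 2 else 1) / ((n + 2).factorial : ℝ) := by
  classical
  by_cases hij : i = j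
  · subst hij
    have h := dirichlet_b n (Pi.single i 2) 1 zero_le_one
    have e1 : ∀ x : Fin n → ℝ, ∏ k, x k ^ (Pi.single i 2 : Fin n → ℕ) k = x i * x i := by
      intro x
      rw [Finset.prod_eq_single i]
      · simp [sq]
      · intro k _ hk
        simp [Pi.single_eq_of_ne hk]
      · intro hk
        exact absurd (Finset.mem_univ i) hk
    have e2 : ∏ k, (((Pi.single i 2 : Fin n → ℕ) k).factorial : ℝ) = 2 := by
      rw [Finset.prod_eq_single i]
      · simp [Nat.factorial]
      · intro k _ hk
        simp [Pi.single_eq_of_ne hk]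
      · intro hk
        exact absurd (Finset.mem_univ i) hk
    have e3 : ∑ k, (Pi.single i 2 : Fin n → ℕ) k = 2 := by simp
    simp only [e1, e2, e3, one_pow, one_mul] at h
    rw [if_pos rfl]
    exact h
  · have h := dirichlet_b n (Pi.single i 1 + Pi.single j 1) 1 zero_le_one
    have e1 : ∀ x : Fin n → ℝ,
        ∏ k, x k ^ ((Pi.single i 1 + Pi.single j 1 : Fin n → ℕ)) k = x i * x j := by
      intro x
      simp only [Pi.add_apply, pow_add, Finset.prod_mul_distrib]
      congr 1
      · rw [Finset.prod_eq_single i]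
        · simp
        · intro k _ hk
          simp [Pi.single_eq_of_ne hk]
        · intro hk
          exact absurd (Finset.mem_univ i) hk
      · rw [Finset.prod_eq_single j]
        · simp
        · intro k _ hk
          simp [Pi.single_eq_of_ne hk]
        · intro hk
          exact absurd (Finset.mem_univ j) hk
    have e2 : ∏ k, ((((Pi.single i 1 + Pi.single j 1 : Fin n → ℕ)) k).factorial : ℝ) = 1 := by
      refine Finset.prod_eq_one fun k _ => ?_
      by_cases hk : k = i
      · subst hk
        simp [Pi.single_eq_of_ne hij]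
      · by_cases hk' : k = j
        · subst hk'
          simp [Pi.single_eq_of_ne hk]
        · simp [Pi.single_eq_of_ne hk, Pi.single_eq_of_ne hk']
    have e3 : ∑ k, ((Pi.single i 1 + Pi.single j 1 : Fin n → ℕ)) k = 2 := by
      simp [Finset.sum_add_distrib]
    simp only [e1, e2, e3, one_pow, mul_one] at h
    rw [if_neg hij]
    exact h

end Vale.Agent.Lib.P254
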