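import Vale.Agent.Lib.P254.Defs

/-! P254 module SUPER: the simplex values are strictly supermultiplicative. -/

namespace Vale.Agent.Lib.P254

theorem s_pos (n : ℕ) : 0 < s n := by
  unfold s
  have : 0 < (n.factorial : ℝ) := by exact_mod_cast n.factorial_pos
  positivity

/-- the ratio -/
noncomputable def SUPER_r (n : ℕ) : ℝ :=
  ((n : ℝ) + 1) ^ (n + 3) / (((n : ℝ) + 2) ^ 2 * ((n : ℝ) + 3) ^ (n + 1))

theorem SUPER_r_pos (n : ℕ) : 0 < SUPER_r n := by
  unfold SUPER_r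
  positivity

theorem s_succ (n : ℕ) : s (n + 1) = s n * SUPER_r n := by
  unfold s SUPER_r
  rw [Nat.factorial_succ]
  push_cast
  have h1 : ((n : ℝ) + 1) ≠ 0 := by positivity
  have h2 : ((n : ℝ) + 2) ≠ 0 := by positivity
  have h3 : ((n : ℝ) + 3) ≠ 0 := by positivity
  have e1 : ((n : ℝ) + 1 + 1) = n + 2 := by ring
  have e2 : ((n : ℝ) + 1 + 2) = n + 3 := by ring
  rw [e1, e2]
  rw [div_mul_div_comm, div_eq_div_iff (by positivity) (by positivity)]
  ring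

theorem SUPER_key (n : ℕ) :
    (((n : ℝ) + 1) * (n + 4)) ^ (n + 2) * (((n : ℝ) + 1) * (n + 3) ^ 3) <
      (((n : ℝ) + 2) * (n + 3)) ^ (n + 2) * ((n : ℝ) + 2) ^ 4 := by
  set y : ℝ := (n : ℝ) with hy
  have hy0 : 0 ≤ y := Nat.cast_nonneg n
  have hb : 0 < (y + 2) * (y + 3) := by positivity
  set b : ℝ := (y + 2) * (y + 3) with hbdef
  have ha : (y + 1) * (y + 4) = b * (1 - 2 / b) := by
    have : b ≠ 0 := hb.ne'
    field_simp
    rw [hbdef]
    ring
  have hx1 : 0 ≤ 1 - 2 / b := by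
    rw [sub_nonneg, div_le_one hb, hbdef]
    nlinarith
  have h1 : (1 - 2 / b) ^ (n + 2) ≤ Real.exp (-(2 / (y + 3))) := by
    have h2 : 1 - 2 / b ≤ Real.exp (-(2 / b)) := by
      have := Real.add_one_le_exp (-(2 / b))
      linarith
    have h3 := pow_le_pow_left₀ hx1 h2 (n + 2)
    refine h3.trans (le_of_eq ?_)
    rw [← Real.exp_nat_mul]
    congr 1
    push_cast
    rw [← hy, hbdef]
    have : y + 2 ≠ 0 := by positivity
    have : y + 3 ≠ 0 := by positivity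
    field_simp
  have h4 : Real.exp (-(2 / (y + 3))) * (y ^ 2 + 8 * y + 17) ≤ (y + 3) ^ 2 := by
    have h5 := Real.quadratic_le_exp_of_nonneg (show (0 : ℝ) ≤ 2 / (y + 3) by positivity)
    have h6 : 1 + 2 / (y + 3) + (2 / (y + 3)) ^ 2 / 2 = (y ^ 2 + 8 * y + 17) / (y + 3) ^ 2 := by
      field_simp
      ring
    rw [h6, div_le_iff₀ (by positivity)] at h5
    rw [Real.exp_neg]
    rw [inv_mul_le_iff₀ (Real.exp_pos _)]
    exact h5
  have hq : 0 < y ^ 2 + 8 * y + 17 := by positivity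
  have h7 : (1 - 2 / b) ^ (n + 2) * ((y + 1) * (y + 3) ^ 3) < (y + 2) ^ 4 := by
    have h8 : (1 - 2 / b) ^ (n + 2) * (y ^ 2 + 8 * y + 17) ≤ (y + 3) ^ 2 :=
      (mul_le_mul_of_nonneg_right h1 hq.le).trans h4
    have h9 : (y + 1) * (y + 3) ^ 5 < (y + 2) ^ 4 * (y ^ 2 + 8 * y + 17) := by
      nlinarith [sq_nonneg y, hy0]
    have h10 : (1 - 2 / b) ^ (n + 2) * ((y + 1) * (y + 3) ^ 3) * (y ^ 2 + 8 * y + 17) <
        (y + 2) ^ 4 * (y ^ 2 + 8 * y + 17) := by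
      calc (1 - 2 / b) ^ (n + 2) * ((y + 1) * (y + 3) ^ 3) * (y ^ 2 + 8 * y + 17)
          = ((1 - 2 / b) ^ (n + 2) * (y ^ 2 + 8 * y + 17)) * ((y + 1) * (y + 3) ^ 3) := by ring
        _ ≤ (y + 3) ^ 2 * ((y + 1) * (y + 3) ^ 3) :=
            mul_le_mul_of_nonneg_right h8 (by positivity)
        _ = (y + 1) * (y + 3) ^ 5 := by ring
        _ < _ := h9
    exact lt_of_mul_lt_mul_right h10 hq.le
  rw [ha, mul_pow, mul_assoc]
  exact mul_lt_mul_of_pos_left h7 (by positivity)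

theorem SUPER_r_lt (n : ℕ) : SUPER_r n < SUPER_r (n + 1) := by
  have hk := SUPER_key n
  unfold SUPER_r
  push_cast
  have e1 : ((n : ℝ) + 1 + 1) = n + 2 := by ring
  have e2 : ((n : ℝ) + 1 + 2) = n + 3 := by ring
  have e3 : ((n : ℝ) + 1 + 3) = n + 4 := by ring
  rw [e1, e2, e3, div_lt_div_iff₀ (by positivity) (by positivity)]
  have h3 : (0 : ℝ) < (n : ℝ) + 3 := by positivity
  refine lt_of_mul_lt_mul_right (a := (n : ℝ) + 3) ?_ h3.le
  rw [mul_pow, mul_pow] at hk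
  calc ((n : ℝ) + 1) ^ (n + 3) * (((n : ℝ) + 3) ^ 2 * ((n : ℝ) + 4) ^ (n + 1 + 1)) * (n + 3)
      = ((n : ℝ) + 1) ^ (n + 2) * ((n : ℝ) + 4) ^ (n + 2) * (((n : ℝ) + 1) * (n + 3) ^ 3) := by
        ring
    _ < ((n : ℝ) + 2) ^ (n + 2) * ((n : ℝ) + 3) ^ (n + 2) * ((n : ℝ) + 2) ^ 4 := hk
    _ = ((n : ℝ) + 2) ^ (n + 1 + 3) * (((n : ℝ) + 2) ^ 2 * ((n : ℝ) + 3) ^ (n + 1)) * (n + 3) := by
        ring

theorem SUPER_strictMono : StrictMono SUPER_r := strictMono_nat_of_lt_succ SUPER_r_lt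

theorem s_zero : s 0 = 1 := by
  simp [s]

theorem s_mul_lt {m n : ℕ} (hm : 1 ≤ m) (hn : 1 ≤ n) : s m * s n < s (m + n) := by
  induction n, hn using Nat.le_induction with
  | base =>
    rw [s_succ m]
    have h1 : s 1 = SUPER_r 0 := by
      have := s_succ 0
      rw [s_zero, one_mul] at this
      simpa using this
    rw [h1]
    exact mul_lt_mul_of_pos_left (SUPER_strictMono (by omega)) (s_pos m)
  | succ n hn ih =>
    rw [← add_assoc, s_succ (m + n), s_succ n, ← mul_assoc]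
    calc s m * s n * SUPER_r n < s (m + n) * SUPER_r n :=
          mul_lt_mul_of_pos_right ih (SUPER_r_pos n)
      _ ≤ s (m + n) * SUPER_r (m + n) :=
          mul_le_mul_of_nonneg_left (SUPER_strictMono.monotone (by omega)) (s_pos _).le

end Vale.Agent.Lib.P254
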