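import Vale.Agent.Lib.P254.Product
import Vale.Agent.Lib.P254.Super

/-! P254: products of bodies that satisfy the strong isotropic constant conjecture. -/

open MeasureTheory

namespace Vale.Agent.Lib.P254

variable {ι κ : Type} [Fintype ι] [Fintype κ]

theorem iso_eq [inst : DecidableEq ι] (K : Set (ι → ℝ)) :
    isoConst K = ((cov K).det / vol K ^ 2) ^ (1 / (2 * (Fintype.card ι : ℝ))) := by
  have h : inst = (fun a b => Classical.propDecidable (a = b)) := Subsingleton.elim _ _
  subst h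
  rfl

open Classical in
theorem final_of (hs : ∀ n, 1 ≤ n → (cov (S n 1)).det / vol (S n 1) ^ 2 = s n)
    (hsup : ∀ m n, 1 ≤ m → 1 ≤ n → s m * s n < s (m + n)) [Nonempty ι] [Nonempty κ]
    {K : Set (ι → ℝ)} {M : Set (κ → ℝ)} (hK : IsBody K) (hM : IsBody M)
    (h1 : isoConst K ≤ isoConst (S (Fintype.card ι) 1))
    (h2 : isoConst M ≤ isoConst (S (Fintype.card κ) 1)) :
    isoConst (prodBody K M) < isoConst (S (Fintype.card ι + Fintype.card κ) 1) := by
  have hm : 1 ≤ Fintype.card ι := Fintype.card_pos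
  have hn : 1 ≤ Fintype.card κ := Fintype.card_pos
  have hmR : (0 : ℝ) < Fintype.card ι := by exact_mod_cast hm
  have hnR : (0 : ℝ) < Fintype.card κ := by exact_mod_cast hn
  have hX1 : 0 ≤ (cov K).det / vol K ^ 2 := div_nonneg (det_cov_nonneg hK) (sq_nonneg _)
  have hX2 : 0 ≤ (cov M).det / vol M ^ 2 := div_nonneg (det_cov_nonneg hM) (sq_nonneg _)
  rw [iso_eq, iso_eq (S (Fintype.card ι) 1), hs _ hm, Fintype.card_fin,
    Real.rpow_le_rpow_iff hX1 (s_pos _).le (by positivity)] at h1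
  rw [iso_eq, iso_eq (S (Fintype.card κ) 1), hs _ hn, Fintype.card_fin,
    Real.rpow_le_rpow_iff hX2 (s_pos _).le (by positivity)] at h2
  rw [iso_eq (prodBody K M), iso_eq (S (Fintype.card ι + Fintype.card κ) 1),
    hs _ (le_trans hm (Nat.le_add_right _ _)), Fintype.card_fin, Fintype.card_sum,
    det_cov_prod hK hM, vol_prod]
  have h3 : (cov K).det * (cov M).det / (vol K * vol M) ^ 2 =
      ((cov K).det / vol K ^ 2) * ((cov M).det / vol M ^ 2) := by
    rw [mul_pow, mul_div_mul_comm]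
  rw [h3]
  apply Real.rpow_lt_rpow (mul_nonneg hX1 hX2)
  · exact lt_of_le_of_lt (mul_le_mul h1 h2 hX2 (s_pos _).le) (hsup _ _ hm hn)
  · push_cast
    positivity

end Vale.Agent.Lib.P254
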