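import Vale.Agent.Lib.P254.DirichletB

/-! P254 module M1: volume and moments of the simplex. -/

open MeasureTheory

namespace Vale.Agent.Lib.P254

theorem vol_S (n : ℕ) : vol (S n 1) = 1 / (n.factorial : ℝ) := dir_vol n

theorem mom1 (n : ℕ) (i : Fin n) : ∫ x in S n 1, x i = 1 / ((n + 1).factorial : ℝ) := dir_one n i

theorem mom2 (n : ℕ) (i j : Fin n) :
    ∫ x in S n 1, x i * x j = (if i = j then 2 else 1) / ((n + 2).factorial : ℝ) := dir_two n i j

end Vale.Agent.Lib.P254
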