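import Vale.Agent.Lib.P254.Defs

/-! P254: the direct product of two convex bodies is a convex body. -/

open MeasureTheory

namespace Vale.Agent.Lib.P254

variable {ι κ : Type} [Fintype ι] [Fintype κ]

theorem body_prod {K : Set (ι → ℝ)} {M : Set (κ → ℝ)} (hK : IsBody K) (hM : IsBody M) :
    IsBody (prodBody K M) := by
  have hc1 : Continuous fun x : ι ⊕ κ → ℝ => fun i => x (Sum.inl i) := by fun_prop
  have hc2 : Continuous fun x : ι ⊕ κ → ℝ => fun j => x (Sum.inr j) := by fun_prop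
  refine ⟨?_, ?_, ?_⟩
  · have h1 : prodBody K M = (fun z : (ι → ℝ) × (κ → ℝ) => Sum.elim z.1 z.2) '' (K ×ˢ M) := by
      ext x
      constructor
      · rintro ⟨h1, h2⟩
        refine ⟨(fun i => x (Sum.inl i), fun j => x (Sum.inr j)), ⟨h1, h2⟩, ?_⟩
        ext a
        rcases a with a | a <;> rfl
      · rintro ⟨z, ⟨h1, h2⟩, rfl⟩
        exact ⟨h1, h2⟩
    rw [h1]
    refine (hK.1.prod hM.1).image ?_
    refine continuous_pi fun a => ?_
    rcases a with a | a
    · exact (continuous_apply a).comp continuous_fst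
    · exact (continuous_apply a).comp continuous_snd
  · rintro x ⟨hx1, hx2⟩ y ⟨hy1, hy2⟩ a b ha hb hab
    exact ⟨hK.2.1 hx1 hy1 ha hb hab, hM.2.1 hx2 hy2 ha hb hab⟩
  · obtain ⟨x, hx⟩ := hK.2.2
    obtain ⟨y, hy⟩ := hM.2.2
    refine ⟨Sum.elim x y, ?_⟩
    have hopen : IsOpen ((fun z : ι ⊕ κ → ℝ => fun i => z (Sum.inl i)) ⁻¹' interior K ∩
        (fun z : ι ⊕ κ → ℝ => fun j => z (Sum.inr j)) ⁻¹' interior M) :=
      (isOpen_interior.preimage hc1).inter (isOpen_interior.preimage hc2)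
    refine interior_maximal (s := prodBody K M) ?_ hopen ?_
    · rintro z ⟨h1, h2⟩
      exact ⟨interior_subset h1, interior_subset h2⟩
    · exact ⟨hx, hy⟩

end Vale.Agent.Lib.P254
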