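import Vale.Agent.Lib.P254.Defs

/-! P254: isotropic constant of a direct product. -/

open MeasureTheory

namespace Vale.Agent.Lib.P254

variable {ι κ : Type} [Fintype ι] [Fintype κ]

theorem prod_int {K : Set (ι → ℝ)} {M : Set (κ → ℝ)} (g : (ι → ℝ) → ℝ) (h : (κ → ℝ) → ℝ) :
    ∫ x in prodBody K M, g (fun i => x (Sum.inl i)) * h (fun j => x (Sum.inr j)) =
      (∫ x in K, g x) * ∫ y in M, h y := by
  have hmp := volume_measurePreserving_sumPiEquivProdPi (fun _ : ι ⊕ κ => ℝ)
  have h1 := hmp.setIntegral_preimage_emb (MeasurableEquiv.measurableEmbedding _)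
    (fun z : (ι → ℝ) × (κ → ℝ) => g z.1 * h z.2) (K ×ˢ M)
  rw [← setIntegral_prod_mul g h K M]
  exact h1

theorem vol_prod (K : Set (ι → ℝ)) (M : Set (κ → ℝ)) : vol (prodBody K M) = vol K * vol M := by
  have hmp := volume_measurePreserving_sumPiEquivProdPi (fun _ : ι ⊕ κ => ℝ)
  have h1 : volume (prodBody K M) = (volume.prod volume) (K ×ˢ M) :=
    hmp.measure_preimage_equiv (K ×ˢ M)
  unfold vol
  rw [h1, Measure.prod_prod, ENNReal.toReal_mul]

theorem body_fin {K : Set (ι → ℝ)} (hK : IsBody K) : volume K < ⊤ := hK.1.measure_lt_top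

theorem vol_pos {K : Set (ι → ℝ)} (hK : IsBody K) : 0 < vol K := by
  refine ENNReal.toReal_pos ?_ (body_fin hK).ne
  exact (Measure.measure_pos_of_nonempty_interior volume hK.2.2).ne'

theorem int_on {K : Set (ι → ℝ)} (hK : IsBody K) {f : (ι → ℝ) → ℝ} (hf : Continuous f) :
    IntegrableOn f K := hf.continuousOn.integrableOn_compact hK.1

theorem int_centered {K : Set (ι → ℝ)} (hK : IsBody K) (i : ι) :
    ∫ x in K, (x i - bary K i) = 0 := by
  rw [integral_sub (int_on hK (continuous_apply i)) (int_on hK continuous_const)]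
  rw [setIntegral_const]
  unfold bary
  have h := (vol_pos hK).ne'
  change (∫ x in K, x i) - vol K * ((vol K)⁻¹ * ∫ x in K, x i) = 0
  rw [← mul_assoc, mul_inv_cancel₀ h, one_mul, sub_self]

theorem bary_inl {K : Set (ι → ℝ)} {M : Set (κ → ℝ)} (hK : IsBody K) (hM : IsBody M) (i : ι) :
    bary (prodBody K M) (Sum.inl i) = bary K i := by
  unfold bary
  have h1 := prod_int (K := K) (M := M) (fun x => x i) (fun _ => 1)
  simp only [mul_one] at h1
  rw [h1, vol_prod, setIntegral_const]
  have h2 := (vol_pos hK).ne'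
  have h3 := (vol_pos hM).ne'
  change (vol K * vol M)⁻¹ * ((∫ x in K, x i) * (vol M * 1)) = _
  field_simp

theorem bary_inr {K : Set (ι → ℝ)} {M : Set (κ → ℝ)} (hK : IsBody K) (hM : IsBody M) (j : κ) :
    bary (prodBody K M) (Sum.inr j) = bary M j := by
  unfold bary
  have h1 := prod_int (K := K) (M := M) (fun _ => 1) (fun y => y j)
  simp only [one_mul] at h1
  rw [h1, vol_prod, setIntegral_const]
  have h2 := (vol_pos hK).ne'
  have h3 := (vol_pos hM).ne'
  change (vol K * vol M)⁻¹ * ((vol K * 1) * (∫ y in M, y j)) = _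
  field_simp

theorem cov_prod {K : Set (ι → ℝ)} {M : Set (κ → ℝ)} (hK : IsBody K) (hM : IsBody M) :
    cov (prodBody K M) = Matrix.fromBlocks (cov K) 0 0 (cov M) := by
  have h2 := (vol_pos hK).ne'
  have h3 := (vol_pos hM).ne'
  ext a b
  rcases a with i | i <;> rcases b with j | j
  · simp only [cov, Matrix.of_apply, Matrix.fromBlocks_apply₁₁]
    rw [bary_inl hK hM, bary_inl hK hM, vol_prod]
    have h1 := prod_int (K := K) (M := M) (fun x => (x i - bary K i) * (x j - bary K j))
      (fun _ => 1)
    simp only [mul_one] at h1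
    rw [h1, setIntegral_const]
    change (vol K * vol M)⁻¹ * ((∫ x in K, (x i - bary K i) * (x j - bary K j)) * (vol M * 1)) = _
    field_simp
  · simp only [cov, Matrix.of_apply, Matrix.fromBlocks_apply₁₂, Matrix.zero_apply]
    rw [bary_inl hK hM, bary_inr hK hM]
    have h1 := prod_int (K := K) (M := M) (fun x => x i - bary K i) (fun y => y j - bary M j)
    rw [h1, int_centered hK]
    simp
  · simp only [cov, Matrix.of_apply, Matrix.fromBlocks_apply₂₁, Matrix.zero_apply]
    rw [bary_inr hK hM, bary_inl hK hM]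
    have h1 := prod_int (K := K) (M := M) (fun x => x j - bary K j) (fun y => y i - bary M i)
    have h4 : ∀ x : ι ⊕ κ → ℝ, (x (Sum.inr i) - bary M i) * (x (Sum.inl j) - bary K j) =
        (x (Sum.inl j) - bary K j) * (x (Sum.inr i) - bary M i) := fun x => mul_comm _ _
    simp_rw [h4]
    rw [h1, int_centered hK]
    simp
  · simp only [cov, Matrix.of_apply, Matrix.fromBlocks_apply₂₂]
    rw [bary_inr hK hM, bary_inr hK hM, vol_prod]
    have h1 := prod_int (K := K) (M := M) (fun _ => 1)
      (fun y => (y i - bary M i) * (y j - bary M j))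
    simp only [one_mul] at h1
    rw [h1, setIntegral_const]
    change (vol K * vol M)⁻¹ * ((vol K * 1) * (∫ x in M, (x i - bary M i) * (x j - bary M j))) = _
    field_simp

open Classical in
theorem det_cov_prod {K : Set (ι → ℝ)} {M : Set (κ → ℝ)} (hK : IsBody K) (hM : IsBody M) :
    (cov (prodBody K M)).det = (cov K).det * (cov M).det := by
  rw [cov_prod hK hM, Matrix.det_fromBlocks_zero₂₁]

open Classical in
theorem det_cov_nonneg {K : Set (ι → ℝ)} (hK : IsBody K) : 0 ≤ (cov K).det := by
  apply Matrix.PosSemidef.det_nonneg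
  refine Matrix.PosSemidef.of_dotProduct_mulVec_nonneg ?_ ?_
  · ext i j
    simp only [Matrix.conjTranspose_apply, cov, Matrix.of_apply, star_trivial]
    simp_rw [mul_comm]
  · intro v
    have hv := vol_pos hK
    have h1 : dotProduct (star v) (Matrix.mulVec (cov K) v) =
        (vol K)⁻¹ * ∫ x in K, (∑ i, v i * (x i - bary K i)) ^ 2 := by
      have h2 : ∀ x : ι → ℝ, (∑ i, v i * (x i - bary K i)) ^ 2 =
          ∑ i, ∑ j, v i * v j * ((x i - bary K i) * (x j - bary K j)) := by
        intro x
        rw [sq, Finset.sum_mul_sum]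
        refine Finset.sum_congr rfl fun i _ => Finset.sum_congr rfl fun j _ => ?_
        ring
      simp_rw [h2]
      rw [integral_finsetSum _ fun i _ => int_on hK (by fun_prop)]
      rw [Finset.mul_sum]
      simp only [dotProduct, Matrix.mulVec, star_trivial]
      refine Finset.sum_congr rfl fun i _ => ?_
      rw [integral_finsetSum _ fun j _ => int_on hK (by fun_prop)]
      rw [Finset.mul_sum, Finset.mul_sum]
      refine Finset.sum_congr rfl fun j _ => ?_
      rw [integral_const_mul]
      simp only [cov, Matrix.of_apply]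
      ring
    rw [h1]
    exact mul_nonneg (inv_nonneg.2 hv.le) (integral_nonneg fun x => sq_nonneg _)

end Vale.Agent.Lib.P254
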