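import Vale.Agent.Lib.P254.Defs

/-!
P254: the simplex is a convex body, and the determinant of its covariance matrix from the moments.
-/

open MeasureTheory

namespace Vale.Agent.Lib.P254

theorem isBody_S (n : ℕ) : IsBody (S n 1) := by
  refine ⟨?_, ?_, ?_⟩
  · have hcl : IsClosed (S n 1) := by
      have e : S n 1 = (⋂ i : Fin n, {x : Fin n → ℝ | 0 ≤ x i}) ∩ {x | ∑ i, x i ≤ 1} := by
        ext x
        simp [S]
      rw [e]
      refine IsClosed.inter (isClosed_iInter fun i => isClosed_le continuous_const
        (continuous_apply i)) (isClosed_le ?_ continuous_const)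
      exact continuous_finsetSum _ (fun i _ => continuous_apply i)
    refine (isCompact_Icc (a := (0 : Fin n → ℝ)) (b := fun _ => 1)).of_isClosed_subset hcl ?_
    intro x hx
    refine ⟨fun i => hx.1 i, fun i => ?_⟩
    exact (Finset.single_le_sum (f := x) (fun j _ => hx.1 j) (Finset.mem_univ i)).trans hx.2
  · intro x hx y hy a b ha hb hab
    refine ⟨fun i => ?_, ?_⟩
    · have h1 := hx.1 i
      have h2 := hy.1 i
      simp only [Pi.add_apply, Pi.smul_apply, smul_eq_mul]
      positivity
    · simp only [Pi.add_apply, Pi.smul_apply, smul_eq_mul, Finset.sum_add_distrib,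
        ← Finset.mul_sum]
      have h1 := mul_le_mul_of_nonneg_left hx.2 ha
      have h2 := mul_le_mul_of_nonneg_left hy.2 hb
      linarith
  · have hop : IsOpen ({x : Fin n → ℝ | ∀ i, 0 < x i} ∩ {x | ∑ i, x i < 1}) := by
      refine IsOpen.inter ?_ (isOpen_lt (continuous_finsetSum _ (fun i _ => continuous_apply i))
        continuous_const)
      have e : {x : Fin n → ℝ | ∀ i, 0 < x i} = ⋂ i : Fin n, {x : Fin n → ℝ | 0 < x i} := by
        ext x
        simp
      rw [e]
      exact isOpen_iInter_of_finite fun i => isOpen_lt continuous_const (continuous_apply i)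
    refine ⟨fun _ => 1 / ((n : ℝ) + 1), ?_⟩
    refine interior_maximal ?_ hop ⟨fun i => by positivity, ?_⟩
    · rintro x ⟨h1, h2⟩
      exact ⟨fun i => (h1 i).le, le_of_lt h2⟩
    · simp only [Set.mem_ofPred_eq, Finset.sum_const, Finset.card_univ, Fintype.card_fin,
        nsmul_eq_mul]
      rw [mul_one_div, div_lt_one (by positivity)]
      linarith

theorem det_aux (n : ℕ) (c d : ℝ) :
    (Matrix.of fun i j : Fin n => (if i = j then c else 0) - c * d).det
      = c ^ n * (1 - n * d) := by
  have e : (Matrix.of fun i j : Fin n => (if i = j then c else 0) - c * d)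
      = c • (1 + Matrix.replicateCol Unit (fun _ : Fin n => -d)
          * Matrix.replicateRow Unit (fun _ : Fin n => (1 : ℝ))) := by
    ext i j
    simp only [Matrix.of_apply, Matrix.smul_apply, Matrix.add_apply, Matrix.mul_apply,
      Matrix.replicateCol_apply, Matrix.replicateRow_apply, Matrix.one_apply, smul_eq_mul]
    simp only [Finset.univ_unique, Finset.sum_const, Finset.card_singleton, one_smul]
    split_ifs <;> ring
  rw [e, Matrix.det_smul, Fintype.card_fin, Matrix.det_one_add_replicateCol_mul_replicateRow]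
  congr 1
  simp [dotProduct]
  ring

theorem simplex_ratio (n : ℕ) (h0 : vol (S n 1) = 1 / (n.factorial : ℝ))
    (h1 : ∀ i, ∫ x in S n 1, x i = 1 / ((n + 1).factorial : ℝ))
    (h2 : ∀ i j, ∫ x in S n 1, x i * x j
      = (if i = j then 2 else 1) / ((n + 2).factorial : ℝ)) :
    (cov (S n 1)).det / vol (S n 1) ^ 2 = s n := by
  have hK := isBody_S n
  have hf0 : (0 : ℝ) < (n.factorial : ℝ) := by exact_mod_cast n.factorial_pos
  have hf1 : ((n + 1).factorial : ℝ) = ((n : ℝ) + 1) * n.factorial := by
    rw [Nat.factorial_succ]; push_cast; ring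
  have hf2 : ((n + 2).factorial : ℝ) = ((n : ℝ) + 2) * (((n : ℝ) + 1) * n.factorial) := by
    rw [Nat.factorial_succ, Nat.factorial_succ]; push_cast; ring
  have hn1 : (0 : ℝ) < (n : ℝ) + 1 := by positivity
  have hn2 : (0 : ℝ) < (n : ℝ) + 2 := by positivity
  have hb : ∀ i, bary (S n 1) i = 1 / ((n : ℝ) + 1) := by
    intro i
    rw [bary, h0, h1, hf1]
    field_simp
  have hi1 : ∀ i, IntegrableOn (fun x : Fin n → ℝ => x i) (S n 1) := fun i =>
    (continuous_apply i).continuousOn.integrableOn_compact hK.1
  have hi2 : ∀ i j, IntegrableOn (fun x : Fin n → ℝ => x i * x j) (S n 1) := fun i j =>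
    ((continuous_apply i).mul (continuous_apply j)).continuousOn.integrableOn_compact hK.1
  have hc : cov (S n 1) = Matrix.of fun i j : Fin n =>
      (if i = j then 1 / (((n : ℝ) + 1) * (n + 2)) else 0)
        - 1 / (((n : ℝ) + 1) * (n + 2)) * (1 / ((n : ℝ) + 1)) := by
    ext i j
    simp only [cov, Matrix.of_apply]
    rw [hb i, hb j, h0]
    set b := 1 / ((n : ℝ) + 1) with hbd
    have e : (fun x : Fin n → ℝ => (x i - b) * (x j - b))
        = fun x => (x i * x j - b * x i) - (b * x j - b ^ 2) := by
      ext x; ring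
    have hc1 : IntegrableOn (fun _ : Fin n → ℝ => b ^ 2) (S n 1) :=
      continuous_const.continuousOn.integrableOn_compact hK.1
    have e2 : ∫ x in S n 1, (x i - b) * (x j - b)
        = ((if i = j then 2 else 1) / ((n + 2).factorial : ℝ)
            - b * (1 / ((n + 1).factorial : ℝ)))
          - (b * (1 / ((n + 1).factorial : ℝ)) - (1 / (n.factorial : ℝ)) * b ^ 2) := by
      have s1 : ∫ x in S n 1, ((x i * x j - b * x i) - (b * x j - b ^ 2))
          = (∫ x in S n 1, (x i * x j - b * x i)) - ∫ x in S n 1, (b * x j - b ^ 2) :=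
        integral_sub ((hi2 i j).sub ((hi1 i).const_mul b)) (((hi1 j).const_mul b).sub hc1)
      have s2 : ∫ x in S n 1, (x i * x j - b * x i)
          = (∫ x in S n 1, x i * x j) - ∫ x in S n 1, b * x i :=
        integral_sub (hi2 i j) ((hi1 i).const_mul b)
      have s3 : ∫ x in S n 1, (b * x j - b ^ 2)
          = (∫ x in S n 1, b * x j) - ∫ _ in S n 1, b ^ 2 :=
        integral_sub ((hi1 j).const_mul b) hc1
      rw [e, s1, s2, s3, integral_const_mul, integral_const_mul,
        h1, h1, h2, setIntegral_const, smul_eq_mul]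
      have h3 : volume.real (S n 1) = vol (S n 1) := rfl
      rw [h3, h0]
    rw [e2, hf1, hf2, hbd]
    split_ifs <;> field_simp <;> ring
  rw [hc, det_aux, h0, s]
  have e3 : (1 : ℝ) - n * (1 / ((n : ℝ) + 1)) = 1 / ((n : ℝ) + 1) := by
    field_simp
    ring
  rw [e3, one_div_pow, mul_pow]
  field_simp
  ring

end Vale.Agent.Lib.P254
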